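import Vale.Agent.Lib.P007.Defs

open Matrix MeasureTheory Filter Topology

namespace Vale.Agent.Lib.P007

instance instSecondCountableMat (n : ℕ) : SecondCountableTopology (Matrix (Fin n) (Fin n) ℝ) :=
  inferInstanceAs (SecondCountableTopology (Fin n → Fin n → ℝ))

instance instLocallyCompactMat (n : ℕ) : LocallyCompactSpace (Matrix (Fin n) (Fin n) ℝ) :=
  inferInstanceAs (LocallyCompactSpace (Fin n → Fin n → ℝ))

instance instSecondCountableSLR (n : ℕ) : SecondCountableTopology (SLR n) :=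
  (Matrix.SpecialLinearGroup.isClosedEmbedding_val).isEmbedding.secondCountableTopology

instance instLocallyCompactSLR (n : ℕ) : LocallyCompactSpace (SLR n) :=
  (Matrix.SpecialLinearGroup.isClosedEmbedding_val).locallyCompactSpace

theorem castHom_closedEmb : IsClosedEmbedding (Int.castRingHom ℝ) :=
  Int.isClosedEmbedding_coe_real

theorem map_closedEmb (n : ℕ) :
    IsClosedEmbedding (Matrix.SpecialLinearGroup.map (n := Fin n) (Int.castRingHom ℝ)) :=
  castHom_closedEmb.specialLinearGroup_map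

theorem tendsto_SLZ (n : ℕ) : Tendsto (SLZ n).subtype cofinite (cocompact (SLR n)) := by
  have h := (map_closedEmb n).tendsto_cocompact
  rw [cocompact_eq_cofinite] at h
  intro s hs
  have h1 := h hs
  rw [mem_map, mem_cofinite] at h1 ⊢
  have : ((SLZ n).subtype ⁻¹' s)ᶜ ⊆
      (Matrix.SpecialLinearGroup.map (n := Fin n) (Int.castRingHom ℝ)).rangeRestrict ''
        ((Matrix.SpecialLinearGroup.map (n := Fin n) (Int.castRingHom ℝ)) ⁻¹' s)ᶜ := by
    rintro ⟨x, ⟨y, rfl⟩⟩ hx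
    exact ⟨y, hx, rfl⟩
  exact (h1.image _).subset this

instance instPDSLZ (n : ℕ) : ProperlyDiscontinuousSMul (SLZ n) (SLR n) :=
  Subgroup.properlyDiscontinuousSMul_of_tendsto_cofinite _ (tendsto_SLZ n)

instance instT2X (n : ℕ) : T2Space (X n) :=
  inferInstanceAs (T2Space (Quotient (MulAction.orbitRel (SLZ n) (SLR n))))

instance instSecondCountableX (n : ℕ) : SecondCountableTopology (X n) :=
  ContinuousConstSMul.secondCountableTopology (Γ := SLZ n) (T := SLR n)

theorem isOpenQuotientMap_mk (n : ℕ) : IsOpenQuotientMap (X.mk (n := n)) :=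
  MulAction.isOpenQuotientMap_quotientMk (Γ := SLZ n) (T := SLR n)

instance instLocallyCompactX (n : ℕ) : LocallyCompactSpace (X n) :=
  (isOpenQuotientMap_mk n).locallyCompactSpace

theorem mk_surjective {n : ℕ} (x : X n) : ∃ g, X.mk g = x := (isOpenQuotientMap_mk n).surjective x

theorem mk_eq_mk {n : ℕ} {g g' : SLR n} (h : X.mk g = X.mk g') : ∃ γ ∈ SLZ n, γ * g' = g := by
  have h1 := Quotient.exact h
  obtain ⟨γ, hγ⟩ := h1
  exact ⟨γ.1, γ.2, hγ⟩

@[simp] theorem act_mk {n : ℕ} (g h : SLR n) : (X.mk g).act h = X.mk (g * h) := rfl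

theorem continuous_act {n : ℕ} (h : SLR n) : Continuous fun x : X n => x.act h := by
  rw [(isOpenQuotientMap_mk n).isQuotientMap.continuous_iff]
  exact (isOpenQuotientMap_mk n).continuous.comp (continuous_mul_const h)

/-- An invariant probability measure gives positive mass to nonempty open sets. -/
theorem measure_pos_of_isOpen {n : ℕ} (m : Measure (X n)) [IsProbabilityMeasure m]
    (hm : IsInvariant m) {U : Set (X n)} (hU : IsOpen U) (hne : U.Nonempty) : 0 < m U := by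
  by_contra hcon
  have h0 : m U = 0 := by simpa using hcon
  have hpre : ∀ h : SLR n, m ((fun x : X n => x.act h) ⁻¹' U) = 0 := by
    intro h
    rw [← Measure.map_apply (continuous_act h).measurable hU.measurableSet, hm h, h0]
  obtain ⟨T, hT, hTU⟩ := TopologicalSpace.isOpen_iUnion_countable
    (fun h : SLR n => (fun x : X n => x.act h) ⁻¹' U) (fun h => hU.preimage (continuous_act h))
  have hcover : (⋃ h : SLR n, (fun x : X n => x.act h) ⁻¹' U) = Set.univ := by
    apply Set.eq_univ_of_forall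
    intro x
    obtain ⟨u, hu⟩ := hne
    obtain ⟨g, rfl⟩ := mk_surjective x
    obtain ⟨g', rfl⟩ := mk_surjective u
    refine Set.mem_iUnion.2 ⟨g⁻¹ * g', ?_⟩
    simpa using hu
  have : m Set.univ = 0 := by
    rw [← hcover, ← hTU]
    exact (measure_biUnion_null_iff hT).2 fun h _ => hpre h
  simp at this

/-- The set of `g` such that `ℤ^n g` is stable under a diagonal matrix killed by `p`. -/
def bad (n : ℕ) (p : Polynomial ℤ) : Set (SLR n) :=
  {g | ∃ d : Fin n → ℝ, (∀ j, Polynomial.aeval (d j) p = 0) ∧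
    ∃ Z : Matrix (Fin n) (Fin n) ℤ,
      (g : Matrix (Fin n) (Fin n) ℝ) * diagonal d = Z.map (Int.castRingHom ℝ) * g}

theorem isClosed_bad (n : ℕ) {p : Polynomial ℤ} (hp : p ≠ 0) : IsClosed (bad n p) := by
  have hfin : {d : Fin n → ℝ | ∀ j, Polynomial.aeval (d j) p = 0}.Finite := by
    have h1 : {r : ℝ | Polynomial.aeval r p = 0}.Finite := by
      have h2 : (p.map (Int.castRingHom ℝ)) ≠ 0 := by
        rwa [Ne, Polynomial.map_eq_zero_iff (RingHom.injective_int _)]
      refine ((p.map (Int.castRingHom ℝ)).roots.toFinset.finite_toSet).subset ?_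
      intro r hr
      simp only [Finset.mem_coe, Multiset.mem_toFinset, Polynomial.mem_roots h2,
        Polynomial.IsRoot.def, Polynomial.eval_map]
      simpa [Polynomial.aeval_def] using hr
    have h3 := Set.Finite.pi (ι := Fin n) (t := fun _ => {r : ℝ | Polynomial.aeval r p = 0})
      (fun _ => h1)
    refine h3.subset ?_
    intro d hd
    simpa [Set.mem_pi] using hd
  have hEq : bad n p = ⋃ d ∈ {d : Fin n → ℝ | ∀ j, Polynomial.aeval (d j) p = 0},
      (fun g : SLR n => (g : Matrix (Fin n) (Fin n) ℝ) * diagonal d *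
        ((g⁻¹ : SLR n) : Matrix (Fin n) (Fin n) ℝ)) ⁻¹'
        Set.range (fun Z : Matrix (Fin n) (Fin n) ℤ => Z.map (Int.castRingHom ℝ)) := by
    ext g
    simp only [bad, Set.mem_ofPred_eq, Set.mem_iUnion, Set.mem_preimage, Set.mem_range,
      exists_prop]
    have hg : (g : Matrix (Fin n) (Fin n) ℝ) * ((g⁻¹ : SLR n) : Matrix (Fin n) (Fin n) ℝ) = 1 := by
      rw [← Matrix.SpecialLinearGroup.coe_mul, mul_inv_cancel, Matrix.SpecialLinearGroup.coe_one]
    have hg' : ((g⁻¹ : SLR n) : Matrix (Fin n) (Fin n) ℝ) * (g : Matrix (Fin n) (Fin n) ℝ) = 1 := by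
      rw [← Matrix.SpecialLinearGroup.coe_mul, inv_mul_cancel, Matrix.SpecialLinearGroup.coe_one]
    constructor
    · rintro ⟨d, hd, Z, hZ⟩
      exact ⟨d, hd, Z, by rw [hZ, Matrix.mul_assoc, hg, Matrix.mul_one]⟩
    · rintro ⟨d, hd, Z, hZ⟩
      exact ⟨d, hd, Z, by rw [hZ, Matrix.mul_assoc, hg', Matrix.mul_one]⟩
  rw [hEq]
  refine hfin.isClosed_biUnion fun d _ => ?_
  refine IsClosed.preimage ?_ (castHom_closedEmb.matrix_map).isClosed_range
  have h1 : Continuous fun g : SLR n => (g : Matrix (Fin n) (Fin n) ℝ) := continuous_subtype_val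
  have h2 : Continuous fun g : SLR n => ((g⁻¹ : SLR n) : Matrix (Fin n) (Fin n) ℝ) :=
    continuous_subtype_val.comp continuous_inv
  exact (h1.mul continuous_const).mul h2

theorem bad_left {n : ℕ} {p : Polynomial ℤ} {g γ : SLR n} (hγ : γ ∈ SLZ n) (hg : g ∈ bad n p) :
    γ * g ∈ bad n p := by
  obtain ⟨d, hd, Z, hZ⟩ := hg
  obtain ⟨γ0, rfl⟩ := hγ
  refine ⟨d, hd, (γ0 : Matrix (Fin n) (Fin n) ℤ) * Z *
    ((γ0⁻¹ : SpecialLinearGroup (Fin n) ℤ) : Matrix (Fin n) (Fin n) ℤ), ?_⟩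
  have h1 : (((γ0⁻¹ : SpecialLinearGroup (Fin n) ℤ) : Matrix (Fin n) (Fin n) ℤ)).map
      (Int.castRingHom ℝ) * ((γ0 : Matrix (Fin n) (Fin n) ℤ)).map (Int.castRingHom ℝ) = 1 := by
    rw [← Matrix.map_mul, ← Matrix.SpecialLinearGroup.coe_mul, inv_mul_cancel,
      Matrix.SpecialLinearGroup.coe_one, Matrix.map_one _ (map_zero _) (map_one _)]
  rw [Matrix.SpecialLinearGroup.coe_mul, Matrix.mul_assoc, hZ, Matrix.map_mul, Matrix.map_mul]
  simp only [Matrix.SpecialLinearGroup.map_apply_coe, RingHom.mapMatrix_apply]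
  calc _ = (γ0 : Matrix (Fin n) (Fin n) ℤ).map (Int.castRingHom ℝ) * Z.map (Int.castRingHom ℝ) *
        1 * g := by simp [Matrix.mul_assoc]
    _ = _ := by rw [← h1]; simp only [Matrix.mul_assoc]

theorem bad_right {n : ℕ} {p : Polynomial ℤ} {g : SLR n} (t : Fin (n - 1) → ℝ)
    (hg : g ∈ bad n p) : g * aOf t ∈ bad n p := by
  obtain ⟨d, hd, Z, hZ⟩ := hg
  refine ⟨d, hd, Z, ?_⟩
  rw [Matrix.SpecialLinearGroup.coe_mul, ← Matrix.mul_assoc, ← hZ]
  simp only [aOf, Matrix.mul_assoc, diagonal_mul_diagonal]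
  congr 2
  ext j
  exact mul_comm _ _

theorem one_not_bad {n : ℕ} (hn : 0 < n) {p : Polynomial ℤ} (hroot : ∀ z : ℤ, p.eval z ≠ 0) :
    (1 : SLR n) ∉ bad n p := by
  rintro ⟨d, hd, Z, hZ⟩
  simp only [Matrix.SpecialLinearGroup.coe_one, Matrix.one_mul, Matrix.mul_one] at hZ
  have h1 : d ⟨0, hn⟩ = (Z ⟨0, hn⟩ ⟨0, hn⟩ : ℝ) := by
    have := congrFun (congrFun hZ ⟨0, hn⟩) ⟨0, hn⟩
    simpa using this
  have h2 := hd ⟨0, hn⟩
  rw [h1] at h2
  apply hroot (Z ⟨0, hn⟩ ⟨0, hn⟩)
  have h3 : ((p.eval (Z ⟨0, hn⟩ ⟨0, hn⟩) : ℤ) : ℝ) = 0 := by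
    rw [← h2, Polynomial.aeval_def, ← Polynomial.eval_map]
    simp [Polynomial.eval_intCast_map]
  exact_mod_cast h3

/-- The image of `bad n p` in `X_n`. -/
def badX (n : ℕ) (p : Polynomial ℤ) : Set (X n) := X.mk '' bad n p

theorem preimage_badX (n : ℕ) (p : Polynomial ℤ) : X.mk ⁻¹' badX n p = bad n p := by
  ext g
  constructor
  · rintro ⟨g', hg', h⟩
    obtain ⟨γ, hγ, rfl⟩ := mk_eq_mk h.symm
    exact bad_left hγ hg'
  · intro hg
    exact ⟨g, hg, rfl⟩

theorem isClosed_badX (n : ℕ) {p : Polynomial ℤ} (hp : p ≠ 0) : IsClosed (badX n p) := by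
  rw [← (isOpenQuotientMap_mk n).isQuotientMap.isClosed_preimage, preimage_badX]
  exact isClosed_bad n hp

theorem badX_act {n : ℕ} {p : Polynomial ℤ} {x : X n} (hx : x ∈ badX n p)
    (t : Fin (n - 1) → ℝ) : x.act (aOf t) ∈ badX n p := by
  obtain ⟨g, hg, rfl⟩ := hx
  exact ⟨g * aOf t, bad_right t hg, rfl⟩

end Vale.Agent.Lib.P007
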