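import Mathlib

open Matrix MeasureTheory Filter Topology

namespace Vale.Agent.Lib.P007

/-- The group `SL_n(ℝ)`. -/
abbrev SLR (n : ℕ) : Type := Matrix.SpecialLinearGroup (Fin n) ℝ

/-- The subgroup `SL_n(ℤ)` of `SL_n(ℝ)`. -/
def SLZ (n : ℕ) : Subgroup (SLR n) := (Matrix.SpecialLinearGroup.map (Int.castRingHom ℝ)).range

/-- `X_n = SL_n(ℤ) \ SL_n(ℝ)`: the set of cosets `SL_n(ℤ) g`. -/
def X (n : ℕ) : Type := Quotient (MulAction.orbitRel (SLZ n) (SLR n))

/-- The quotient topology on `X_n`. -/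
instance instTopologicalSpaceX (n : ℕ) : TopologicalSpace (X n) :=
  inferInstanceAs (TopologicalSpace (Quotient (MulAction.orbitRel (SLZ n) (SLR n))))

/-- The Borel sigma-algebra on `X_n`. -/
instance instMeasurableSpaceX (n : ℕ) : MeasurableSpace (X n) := borel (X n)

instance instBorelSpaceX (n : ℕ) : BorelSpace (X n) := ⟨rfl⟩

/-- The coset `SL_n(ℤ) g`. -/
def X.mk {n : ℕ} (g : SLR n) : X n := Quotient.mk (MulAction.orbitRel (SLZ n) (SLR n)) g

/-- The right action of `SL_n(ℝ)` on `X_n`: `(SL_n(ℤ) g) h = SL_n(ℤ) (g h)`. -/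
def X.act {n : ℕ} (x : X n) (h : SLR n) : X n :=
  Quotient.map (fun g : SLR n => g * h)
    (fun a b hab => by
      obtain ⟨γ, hγ⟩ := hab
      exact ⟨γ, by simp only [← hγ, smul_mul_assoc]⟩) x

/-- The lattice `ℤ^n g` (row vectors) attached to `g`. -/
def latticeOf {n : ℕ} (g : SLR n) : Set (Fin n → ℝ) :=
  Set.range fun z : Fin n → ℤ => (fun i => (z i : ℝ)) ᵥ* (g : Matrix (Fin n) (Fin n) ℝ)

/-- The point `x` of `X_n` is the lattice `L`. -/
def IsPoint {n : ℕ} (x : X n) (L : Set (Fin n → ℝ)) : Prop :=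
  ∃ g : SLR n, X.mk g = x ∧ latticeOf g = L

/-- `(t_1, ..., t_{n-1}) ↦ (t_1, ..., t_{n-1}, -(t_1 + ... + t_{n-1}))`. -/
def uOf {n : ℕ} (t : Fin (n - 1) → ℝ) (j : Fin n) : ℝ :=
  if h : (j : ℕ) < n - 1 then t ⟨j, h⟩ else - ∑ k, t k

theorem sum_uOf {n : ℕ} (t : Fin (n - 1) → ℝ) : ∑ j, uOf t j = 0 := by
  cases n with
  | zero => simp
  | succ m =>
    rw [Fin.sum_univ_castSucc]
    have h1 : ∀ i : Fin m, uOf (n := m + 1) t i.castSucc = t i := by
      intro i
      have : ((i.castSucc : Fin (m + 1)) : ℕ) < m + 1 - 1 := by simp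
      simp only [uOf, this, dite_true]
      rfl
    have h2 : uOf (n := m + 1) t (Fin.last m) = - ∑ k, t k := by
      simp [uOf]
    rw [h2, Finset.sum_congr rfl (fun i _ => h1 i)]
    exact add_neg_cancel _

/-- The element `diag(e^{u_1}, ..., e^{u_n})` of `A_n` with coordinates `u_1, ..., u_{n-1}`. -/
noncomputable def aOf {n : ℕ} (t : Fin (n - 1) → ℝ) : SLR n :=
  ⟨diagonal fun j => Real.exp (uOf t j), by
    rw [det_diagonal, ← Real.exp_sum, sum_uOf, Real.exp_zero]⟩

/-- The orbit `x A_n`. -/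
def orbit {n : ℕ} (x : X n) : Set (X n) := Set.range fun t : Fin (n - 1) → ℝ => x.act (aOf t)

/-- `F` is a measurable set of parameters `t` on which `t ↦ x a(t)` is a bijection onto the
orbit `x A_n`. -/
def IsFundDom {n : ℕ} (x : X n) (F : Set (Fin (n - 1) → ℝ)) : Prop :=
  MeasurableSet F ∧ ∀ s : Fin (n - 1) → ℝ, ∃! t, t ∈ F ∧ x.act (aOf t) = x.act (aOf s)

open Classical in
/-- The `A_n`-invariant measure on the orbit `S` induced by the Haar measure
`du_1 ... du_{n-1}` of `A_n` (the push-forward of Lebesgue measure on a fundamental domain). -/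
noncomputable def orbitMeasure {n : ℕ} (S : Set (X n)) : Measure (X n) :=
  if h : ∃ (x : X n) (F : Set (Fin (n - 1) → ℝ)), S = orbit x ∧ IsFundDom x F then
    (volume.restrict h.choose_spec.choose).map fun t => h.choose.act (aOf t)
  else 0

/-- The volume of the orbit `S`. -/
noncomputable def vol {n : ℕ} (S : Set (X n)) : ENNReal := orbitMeasure S Set.univ

/-- The invariant probability measure on the orbit `S`. -/
noncomputable def nu {n : ℕ} (S : Set (X n)) : Measure (X n) := (vol S)⁻¹ • orbitMeasure S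

variable {K : Type} [Field K] [NumberField K]

/-- `O` is an order of `K`: a subring of the ring of integers of full rank. -/
def IsOrder (O : Subring K) : Prop :=
  (∀ x ∈ O, IsIntegral ℤ x) ∧ Submodule.span ℚ (O : Set K) = ⊤

/-- `d` is the discriminant of `O`: the determinant of the trace form on a `ℤ`-basis of `O`. -/
def IsDisc (n : ℕ) (O : Subring K) (d : ℚ) : Prop :=
  ∃ b : Fin n → K, LinearIndependent ℤ b ∧ (Submodule.span ℤ (Set.range b) : Set K) = O ∧
    d = Algebra.discr ℚ b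

/-- `I` is a proper invertible fractional `O`-ideal. -/
structure IsProperInvertible (O : Subring K) (I : Submodule O K) : Prop where
  fg : I.FG
  ne_bot : I ≠ ⊥
  proper : ∀ a : K, (∀ x ∈ I, a * x ∈ I) ↔ a ∈ O
  invertible : ∃ J : Submodule O K, J.FG ∧ I * J = 1

/-- The lattice `σ(I)` in `ℝ^n`. -/
def embLattice {n : ℕ} (σ : Fin n ≃ (K →+* ℝ)) {O : Subring K} (I : Submodule O K) :
    Submodule ℤ (Fin n → ℝ) :=
  Submodule.span ℤ ((fun y : K => fun j => σ j y) '' (I : Set K))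

/-- The lattice `Λ_I w = covol(σ(I))^{-1/n} σ(I) w`, with `w = diag(ε_1, ..., ε_n)`. -/
def normLattice {n : ℕ} (σ : Fin n ≃ (K →+* ℝ)) {O : Subring K} (I : Submodule O K)
    (ε : Fin n → ℝ) : Set (Fin n → ℝ) :=
  {v | ∃ y ∈ I, v = fun j => (ZLattice.covolume (embLattice σ I)) ^ (-(1 : ℝ) / n) * σ j y * ε j}

/-- The packet of `(O, σ)`: the set of orbits `Λ_I w A_n`. -/
def packet {n : ℕ} (σ : Fin n ≃ (K →+* ℝ)) (O : Subring K) : Set (Set (X n)) :=
  {S | ∃ I : Submodule O K, IsProperInvertible O I ∧ ∃ ε : Fin n → ℝ,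
    (∀ j, ε j = 1 ∨ ε j = -1) ∧ ∃ x : X n, IsPoint x (normLattice σ I ε) ∧ S = orbit x}

/-- The packet measure `μ_{O,σ}`. -/
noncomputable def packetMeasure {n : ℕ} (σ : Fin n ≃ (K →+* ℝ)) (O : Subring K) :
    Measure (X n) :=
  (∑' S : packet σ O, vol S.1)⁻¹ • Measure.sum fun S : packet σ O => vol S.1 • nu S.1

/-- Weak convergence `μ_i → m` as in Q1: convergence of integrals of compactly supported
continuous functions, and no escape of mass. -/
def Equidistributes {n : ℕ} (μ : ℕ → Measure (X n)) (m : Measure (X n)) : Prop :=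
  (∀ f : X n → ℝ, Continuous f → HasCompactSupport f →
    Tendsto (fun i => ∫ x, f x ∂(μ i)) atTop (𝓝 (∫ x, f x ∂m))) ∧
  ∀ e : ℝ, 0 < e → ∃ C : Set (X n), IsCompact C ∧ ∀ᶠ i in atTop, ENNReal.ofReal (1 - e) ≤ μ i C

/-- `m` is invariant under the right action of `SL_n(ℝ)`. -/
def IsInvariant {n : ℕ} (m : Measure (X n)) : Prop :=
  ∀ h : SLR n, m.map (fun x => x.act h) = m

end Vale.Agent.Lib.P007
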