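import Vale.Agent.Lib.P007.Obstruction

open QuadraticAlgebra

namespace Vale.Agent.Lib.P007.Ex

abbrev F : Type := QuadraticAlgebra ℚ 2 0

theorem not_sq2 : ∀ r : ℚ, r ^ 2 ≠ 2 + 0 * r := by
  intro r h
  have h1 : IsSquare (2 : ℚ) := ⟨r, by rw [← sq, h]; ring⟩
  exact absurd h1 (by norm_num)

instance instFact2 : Fact (∀ r : ℚ, r ^ 2 ≠ 2 + 0 * r) := ⟨not_sq2⟩

theorem not_sq3 : ∀ r : F, r ^ 2 ≠ 3 + 0 * r := by
  intro r h
  have hre := congrArg QuadraticAlgebra.re h
  have him := congrArg QuadraticAlgebra.im h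
  simp [sq] at hre him
  have h0 : r.re * r.im = 0 := by linarith
  rcases mul_eq_zero.1 h0 with h1 | h1
  · rw [h1] at hre
    have h2 : IsSquare (3 / 2 : ℚ) := ⟨r.im, by linarith⟩
    exact absurd h2 (by norm_num)
  · rw [h1] at hre
    have h2 : IsSquare (3 : ℚ) := ⟨r.re, by linarith⟩
    exact absurd h2 (by norm_num)

instance instFact3 : Fact (∀ r : F, r ^ 2 ≠ 3 + 0 * r) := ⟨not_sq3⟩

abbrev K : Type := QuadraticAlgebra F 3 0

noncomputable instance : Field K := inferInstance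

instance : CharZero K := inferInstance

instance : Module.Finite ℚ K := Module.Finite.trans F K

instance instNF : NumberField K where
  to_charZero := inferInstance
  to_finiteDimensional := inferInstance

theorem finrank_K : Module.finrank ℚ K = 4 := by
  rw [← Module.finrank_mul_finrank ℚ F K, QuadraticAlgebra.finrank_eq_two,
    QuadraticAlgebra.finrank_eq_two]

noncomputable def toR (s t : ℝ) (hs : s * s = 2) (ht : t * t = 3) : K →+* ℝ where
  toFun x := x.re.re + x.re.im * s + (x.im.re + x.im.im * s) * t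
  map_one' := by simp
  map_zero' := by simp
  map_add' x y := by simp; ring
  map_mul' x y := by
    simp only [re_mul, im_mul, re_add, im_add, re_ofNat, im_ofNat, re_zero, im_zero]
    push_cast
    linear_combination (-(x.re.im * y.re.im + 3 * x.im.im * y.im.im +
      t * (x.re.im * y.im.im + x.im.im * y.re.im) : ℝ)) * hs +
      (-((x.im.re + x.im.im * s) * (y.im.re + y.im.im * s) : ℝ)) * ht

def r2 : K := ⟨⟨0, 1⟩, 0⟩
def r3 : K := ⟨0, 1⟩

theorem r2_mul : r2 * r2 = 2 := by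
  ext <;> simp [r2]

theorem r3_mul : r3 * r3 = 3 := by
  ext <;> simp [r3]

theorem K_eq (x : K) : x = (x.re.re : K) + (x.re.im : K) * r2 + ((x.im.re : K) + (x.im.im : K) * r2) * r3 := by
  ext <;> simp [r2, r3]

theorem hom_r2 (φ : K →+* ℝ) : φ r2 * φ r2 = 2 := by
  rw [← map_mul, r2_mul]
  exact map_ofNat φ 2

theorem hom_r3 (φ : K →+* ℝ) : φ r3 * φ r3 = 3 := by
  rw [← map_mul, r3_mul]
  exact map_ofNat φ 3

theorem hom_eq (φ : K →+* ℝ) : φ = toR (φ r2) (φ r3) (hom_r2 φ) (hom_r3 φ) := by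
  ext x
  conv_lhs => rw [K_eq x]
  simp [toR]

theorem toR_r2 (s t : ℝ) (hs : s * s = 2) (ht : t * t = 3) : toR s t hs ht r2 = s := by
  simp [toR, r2]

theorem toR_r3 (s t : ℝ) (hs : s * s = 2) (ht : t * t = 3) : toR s t hs ht r3 = t := by
  simp [toR, r3]

theorem toR_congr {s t s' t' : ℝ} (hs : s * s = 2) (ht : t * t = 3) (hs' : s' * s' = 2)
    (ht' : t' * t' = 3) (h1 : s = s') (h2 : t = t') : toR s t hs ht = toR s' t' hs' ht' := by
  subst h1; subst h2; rfl

noncomputable def sv : Fin 4 → ℝ := ![√2, √2, -√2, -√2]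
noncomputable def tv : Fin 4 → ℝ := ![√3, -√3, √3, -√3]

theorem sv_mul (i : Fin 4) : sv i * sv i = 2 := by fin_cases i <;> simp [sv]
theorem tv_mul (i : Fin 4) : tv i * tv i = 3 := by fin_cases i <;> simp [tv]

noncomputable def sigmaFun (i : Fin 4) : K →+* ℝ := toR (sv i) (tv i) (sv_mul i) (tv_mul i)

theorem sigmaFun_bij : Function.Bijective sigmaFun := by
  have p2 : (0 : ℝ) < √2 := by positivity
  have p3 : (0 : ℝ) < √3 := by positivity
  constructor
  · intro i j h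
    have h1 : sv i = sv j := by
      have := congrArg (fun φ : K →+* ℝ => φ r2) h
      simpa [sigmaFun, toR_r2] using this
    have h2 : tv i = tv j := by
      have := congrArg (fun φ : K →+* ℝ => φ r3) h
      simpa [sigmaFun, toR_r3] using this
    fin_cases i <;> fin_cases j <;> simp [sv, tv] at h1 h2 ⊢ <;> linarith
  · intro φ
    have h1 : φ r2 = √2 ∨ φ r2 = -√2 := by
      apply mul_self_eq_mul_self_iff.1
      rw [hom_r2]; simp
    have h2 : φ r3 = √3 ∨ φ r3 = -√3 := by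
      apply mul_self_eq_mul_self_iff.1
      rw [hom_r3]; simp
    rw [hom_eq φ]
    rcases h1 with h1 | h1 <;> rcases h2 with h2 | h2
    · exact ⟨0, toR_congr _ _ _ _ h1.symm h2.symm⟩
    · exact ⟨1, toR_congr _ _ _ _ h1.symm h2.symm⟩
    · exact ⟨2, toR_congr _ _ _ _ h1.symm h2.symm⟩
    · exact ⟨3, toR_congr _ _ _ _ h1.symm h2.symm⟩

noncomputable def sigma : Fin 4 ≃ (K →+* ℝ) := Equiv.ofBijective sigmaFun sigmaFun_bij

def mkK (a b c d : ℚ) : K := ⟨⟨a, b⟩, ⟨c, d⟩⟩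

theorem mkK_mul (a b c d a' b' c' d' : ℚ) : mkK a b c d * mkK a' b' c' d' =
    mkK (a * a' + 2 * b * b' + 3 * (c * c' + 2 * d * d')) (a * b' + b * a' + 3 * (c * d' + d * c'))
      (a * c' + 2 * b * d' + (c * a' + 2 * d * b')) (a * d' + b * c' + (c * b' + d * a')) := by
  ext <;> simp [mkK] <;> ring

theorem mkK_add (a b c d a' b' c' d' : ℚ) : mkK a b c d + mkK a' b' c' d' =
    mkK (a + a') (b + b') (c + c') (d + d') := by
  ext <;> simp [mkK]

theorem mkK_neg (a b c d : ℚ) : - mkK a b c d = mkK (-a) (-b) (-c) (-d) := by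
  ext <;> simp [mkK]

def OrdF (f : ℤ) : Subring K where
  carrier := {x | ∃ a b c d : ℤ, x = mkK a b (f * c) (f * d)}
  mul_mem' := by
    rintro _ _ ⟨a, b, c, d, rfl⟩ ⟨a', b', c', d', rfl⟩
    rw [mkK_mul]
    refine ⟨a * a' + 2 * b * b' + 3 * (f * c * (f * c') + 2 * (f * d) * (f * d')),
      a * b' + b * a' + 3 * (f * c * (f * d') + f * d * (f * c')),
      a * c' + 2 * b * d' + (c * a' + 2 * d * b'), a * d' + b * c' + (c * b' + d * a'), ?_⟩
    congr 1 <;> push_cast <;> ring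
  one_mem' := ⟨1, 0, 0, 0, by ext <;> simp [mkK]⟩
  add_mem' := by
    rintro _ _ ⟨a, b, c, d, rfl⟩ ⟨a', b', c', d', rfl⟩
    rw [mkK_add]
    refine ⟨a + a', b + b', c + c', d + d', ?_⟩
    congr 1 <;> push_cast <;> ring
  zero_mem' := ⟨0, 0, 0, 0, by ext <;> simp [mkK]⟩
  neg_mem' := by
    rintro _ ⟨a, b, c, d, rfl⟩
    rw [mkK_neg]
    refine ⟨-a, -b, -c, -d, ?_⟩
    congr 1 <;> push_cast <;> ring

theorem r2_mem (f : ℤ) : r2 ∈ OrdF f := ⟨0, 1, 0, 0, by ext <;> simp [mkK, r2]⟩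

theorem mkK_eq (a b c d : ℚ) : mkK a b c d = (a : K) + (b : K) * r2 + ((c : K) + (d : K) * r2) * r3 := by
  rw [K_eq (mkK a b c d)]
  rfl

theorem isIntegral_r2 : IsIntegral ℤ r2 := by
  apply IsIntegral.of_pow (n := 2) (by norm_num)
  rw [sq, r2_mul]
  exact isIntegral_algebraMap (R := ℤ) (x := 2)

theorem isIntegral_r3 : IsIntegral ℤ r3 := by
  apply IsIntegral.of_pow (n := 2) (by norm_num)
  rw [sq, r3_mul]
  exact isIntegral_algebraMap (R := ℤ) (x := 3)

theorem isIntegral_int (a : ℤ) : IsIntegral ℤ (((a : ℚ)) : K) := by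
  have : (((a : ℚ)) : K) = algebraMap ℤ K a := by simp
  rw [this]
  exact isIntegral_algebraMap

theorem OrdF_integral (f : ℤ) (x : K) (hx : x ∈ OrdF f) : IsIntegral ℤ x := by
  obtain ⟨a, b, c, d, rfl⟩ := hx
  rw [mkK_eq]
  have h1 : ((f : ℚ) * (c : ℚ)) = ((f * c : ℤ) : ℚ) := by push_cast; ring
  have h2 : ((f : ℚ) * (d : ℚ)) = ((f * d : ℤ) : ℚ) := by push_cast; ring
  rw [h1, h2]
  exact ((isIntegral_int a).add ((isIntegral_int b).mul isIntegral_r2)).add
    (((isIntegral_int _).add ((isIntegral_int _).mul isIntegral_r2)).mul isIntegral_r3)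

theorem smul_mkK (q a b c d : ℚ) : q • mkK a b c d = mkK (q * a) (q * b) (q * c) (q * d) := by
  ext <;> simp [mkK]

theorem OrdF_span (f : ℤ) (hf : f ≠ 0) : Submodule.span ℚ ((OrdF f : Subring K) : Set K) = ⊤ := by
  rw [Submodule.eq_top_iff']
  intro x
  have hfq : (f : ℚ) ≠ 0 := by exact_mod_cast hf
  have h1 : mkK 1 0 0 0 ∈ Submodule.span ℚ ((OrdF f : Subring K) : Set K) :=
    Submodule.subset_span ⟨1, 0, 0, 0, by simp⟩
  have h2 : mkK 0 1 0 0 ∈ Submodule.span ℚ ((OrdF f : Subring K) : Set K) :=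
    Submodule.subset_span ⟨0, 1, 0, 0, by simp⟩
  have h3 : mkK 0 0 f 0 ∈ Submodule.span ℚ ((OrdF f : Subring K) : Set K) :=
    Submodule.subset_span ⟨0, 0, 1, 0, by simp⟩
  have h4 : mkK 0 0 0 f ∈ Submodule.span ℚ ((OrdF f : Subring K) : Set K) :=
    Submodule.subset_span ⟨0, 0, 0, 1, by simp⟩
  have : x = x.re.re • mkK 1 0 0 0 + x.re.im • mkK 0 1 0 0 + (x.im.re / f) • mkK 0 0 f 0 +
      (x.im.im / f) • mkK 0 0 0 f := by
    simp only [smul_mkK, mkK_add]
    ext <;> simp [mkK] <;> field_simp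
  rw [this]
  exact Submodule.add_mem _ (Submodule.add_mem _ (Submodule.add_mem _ (Submodule.smul_mem _ _ h1)
    (Submodule.smul_mem _ _ h2)) (Submodule.smul_mem _ _ h3)) (Submodule.smul_mem _ _ h4)

def bas (f : ℤ) : Fin 4 → K := ![mkK 1 0 0 0, mkK 0 1 0 0, mkK 0 0 f 0, mkK 0 0 0 f]

theorem zsmul_mkK (q : ℤ) (a b c d : ℚ) : q • mkK a b c d = mkK (q * a) (q * b) (q * c) (q * d) := by
  ext <;> simp [mkK]

theorem sum_bas (f : ℤ) (g : Fin 4 → ℤ) :
    ∑ i, g i • bas f i = mkK (g 0) (g 1) (f * g 2) (f * g 3) := by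
  have e0 : bas f 0 = mkK 1 0 0 0 := rfl
  have e1 : bas f 1 = mkK 0 1 0 0 := rfl
  have e2 : bas f 2 = mkK 0 0 f 0 := rfl
  have e3 : bas f 3 = mkK 0 0 0 f := rfl
  rw [Fin.sum_univ_four, e0, e1, e2, e3]
  simp only [zsmul_mkK, mkK_add]
  congr 1 <;> ring

theorem mkK_inj {a b c d a' b' c' d' : ℚ} (h : mkK a b c d = mkK a' b' c' d') :
    a = a' ∧ b = b' ∧ c = c' ∧ d = d' := by
  have h1 := congrArg (fun x : K => x.re.re) h
  have h2 := congrArg (fun x : K => x.re.im) h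
  have h3 := congrArg (fun x : K => x.im.re) h
  have h4 := congrArg (fun x : K => x.im.im) h
  exact ⟨h1, h2, h3, h4⟩

theorem bas_li (f : ℤ) (hf : f ≠ 0) : LinearIndependent ℤ (bas f) := by
  rw [Fintype.linearIndependent_iff]
  intro g hg
  rw [sum_bas] at hg
  have h0 : (0 : K) = mkK 0 0 0 0 := by ext <;> simp [mkK]
  rw [h0] at hg
  obtain ⟨h1, h2, h3, h4⟩ := mkK_inj hg
  have hfq : (f : ℚ) ≠ 0 := by exact_mod_cast hf
  intro i
  fin_cases i
  · exact_mod_cast h1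
  · exact_mod_cast h2
  · have := (mul_eq_zero.1 h3).resolve_left hfq
    exact_mod_cast this
  · have := (mul_eq_zero.1 h4).resolve_left hfq
    exact_mod_cast this

theorem bas_span (f : ℤ) : (Submodule.span ℤ (Set.range (bas f)) : Set K) = OrdF f := by
  ext x
  simp only [SetLike.mem_coe, Submodule.mem_span_range_iff_exists_fun]
  constructor
  · rintro ⟨g, rfl⟩
    rw [sum_bas]
    exact ⟨g 0, g 1, g 2, g 3, rfl⟩
  · rintro ⟨a, b, c, d, rfl⟩
    exact ⟨![a, b, c, d], by rw [sum_bas]; simp⟩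

theorem trace_quad {R : Type*} [CommRing R] (a b : R) (z : QuadraticAlgebra R a b) :
    Algebra.trace R (QuadraticAlgebra R a b) z = 2 * z.re + b * z.im := by
  rw [Algebra.trace_eq_matrix_trace (QuadraticAlgebra.basis a b), Matrix.trace_fin_two]
  simp only [Algebra.leftMulMatrix_eq_repr_mul, QuadraticAlgebra.basis_repr_apply]
  have h0 : (QuadraticAlgebra.basis a b) 0 = 1 := by
    ext <;> simp [QuadraticAlgebra.basis]
  have h1 : (QuadraticAlgebra.basis a b) 1 = ⟨0, 1⟩ := by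
    ext <;> simp [QuadraticAlgebra.basis]
  rw [h0, h1]
  simp
  ring

theorem trace_F (z : F) : Algebra.trace ℚ F z = 2 * z.re + 0 * z.im := by
  have h := trace_quad (2 : ℚ) 0 z
  convert h
  exact Subsingleton.elim _ _

theorem trace_K (a b c d : ℚ) : Algebra.trace ℚ K (mkK a b c d) = 4 * a := by
  rw [← Algebra.trace_trace (S := F), trace_quad, trace_F]
  simp [mkK]
  ring

theorem discr_bas (f : ℤ) : Algebra.discr ℚ (bas f) = 9216 * (f : ℚ) ^ 4 := by
  have hM : Algebra.traceMatrix ℚ (bas f) =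
      Matrix.diagonal ![4, 8, 12 * (f : ℚ) ^ 2, 24 * (f : ℚ) ^ 2] := by
    ext i j
    rw [Algebra.traceMatrix_apply, Algebra.traceForm_apply]
    fin_cases i <;> fin_cases j <;> simp [bas, mkK_mul, trace_K] <;> ring
  rw [Algebra.discr_def, hM, Matrix.det_diagonal, Fin.prod_univ_four]
  simp
  ring

end Vale.Agent.Lib.P007.Ex
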