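import Vale.Agent.Lib.P007.Poly

open Polynomial

namespace Vale.Agent.Lib.P007

/-- The polynomial `g` over `ℚ` (degrees shifted by two). -/
noncomputable abbrev gQ (d e : ℕ) : ℚ[X] := (gg (d + 2) (e + 2)).map (Int.castRingHom ℚ)

instance instFactIrr (d e : ℕ) : Fact (Irreducible (gQ d e)) :=
  ⟨gg_irreducible_rat (by omega) (by omega)⟩

/-- The totally real field `ℚ[X]/(g)` of degree `(d+2)(e+2)`. -/
abbrev KK (d e : ℕ) : Type := AdjoinRoot (gQ d e)

theorem gQ_monic (d e : ℕ) : (gQ d e).Monic := (gg_monic (by omega) (by omega)).map _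

theorem gQ_natDegree (d e : ℕ) : (gQ d e).natDegree = (d + 2) * (e + 2) := by
  rw [(gg_monic (by omega) (by omega)).natDegree_map, gg_natDegree (by omega) (by omega)]

theorem finrank_KK (d e : ℕ) : Module.finrank ℚ (KK d e) = (d + 2) * (e + 2) := by
  have h := (AdjoinRoot.powerBasis (gQ_monic d e).ne_zero).finrank
  rw [AdjoinRoot.powerBasis_dim, gQ_natDegree] at h
  rw [← h]

/-- The generator `θ`. -/
noncomputable def th (d e : ℕ) : KK d e := AdjoinRoot.root (gQ d e)

theorem aeval_th (d e : ℕ) : aeval (th d e) (gg (d + 2) (e + 2)) = 0 := by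
  have h := AdjoinRoot.eval₂_root (gQ d e)
  rw [eval₂_map] at h
  rw [aeval_def, ← h]
  congr 1

theorem xr_mem (d e : ℕ) (k : ℕ) : xr ((d + 2) * (e + 2)) k ∈ (gQ d e).aroots ℝ := by
  rw [mem_aroots]
  refine ⟨(gQ_monic d e).ne_zero, ?_⟩
  have h := xr_root (d := d + 2) (e := e + 2) (by omega) (by omega) k
  rw [aeval_def, eval₂_map]
  rw [aeval_def] at h
  rw [← h]
  congr 1

theorem rootMap_bij (d e : ℕ) : Function.Bijective
    (fun k : Fin ((d + 2) * (e + 2)) =>
      (⟨xr ((d + 2) * (e + 2)) k, xr_mem d e k⟩ : { x // x ∈ (gQ d e).aroots ℝ })) := by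
  have hinj : Function.Injective (fun k : Fin ((d + 2) * (e + 2)) =>
      (⟨xr ((d + 2) * (e + 2)) k, xr_mem d e k⟩ : { x // x ∈ (gQ d e).aroots ℝ })) := by
    intro k l h
    have h1 := congrArg Subtype.val h
    exact Fin.ext (xr_inj (Nat.mul_pos (by omega) (by omega)) k.2 l.2 h1)
  apply hinj.bijective_of_nat_card_le
  rw [Nat.subtype_card ((gQ d e).aroots ℝ).toFinset (fun x => Multiset.mem_toFinset),
    Nat.card_eq_fintype_card, Fintype.card_fin]
  refine (Multiset.toFinset_card_le _).trans ?_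
  refine (card_roots' _).trans ?_
  rw [(gQ_monic d e).natDegree_map, gQ_natDegree]

/-- An ordering of the real embeddings of `KK d e`. -/
noncomputable def sigmaKK (d e : ℕ) : Fin ((d + 2) * (e + 2)) ≃ (KK d e →+* ℝ) :=
  (Equiv.ofBijective _ (rootMap_bij d e)).trans
    ((AdjoinRoot.equiv ℝ ℚ (gQ d e) (gQ_monic d e).ne_zero).symm.trans
      (RingHom.equivRatAlgHom (KK d e) ℝ).symm)

end Vale.Agent.Lib.P007
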