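import Vale.Agent.Lib.P007.Core

open Matrix MeasureTheory Filter Topology

namespace Vale.Agent.Lib.P007

variable {K : Type} [Field K] [NumberField K]

theorem aeval_emb {n : ℕ} (σ : Fin n ≃ (K →+* ℝ)) {p : Polynomial ℤ} {a : K}
    (hp : Polynomial.aeval a p = 0) (j : Fin n) : Polynomial.aeval (σ j a) p = 0 := by
  have h1 := Polynomial.hom_eval₂ p (algebraMap ℤ K) (σ j) a
  rw [Polynomial.aeval_def] at hp ⊢
  rw [hp, map_zero] at h1
  rw [h1]
  congr 1
  exact RingHom.ext_int _ _

theorem point_bad {n : ℕ} (σ : Fin n ≃ (K →+* ℝ)) {O : Subring K} (I : Submodule O K)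
    (ε : Fin n → ℝ) {p : Polynomial ℤ} {a : K} (ha : a ∈ O) (hp : Polynomial.aeval a p = 0)
    {x : X n} (hx : IsPoint x (normLattice σ I ε)) : x ∈ badX n p := by
  obtain ⟨g, rfl, hg⟩ := hx
  refine ⟨g, ⟨fun j => σ j a, aeval_emb σ hp, ?_⟩, rfl⟩
  have hrow : ∀ i : Fin n, ∃ z : Fin n → ℤ, ∀ j,
      ((fun k => (z k : ℝ)) ᵥ* (g : Matrix (Fin n) (Fin n) ℝ)) j = g i j * σ j a := by
    intro i
    have h1 : (fun j => g i j) ∈ latticeOf g := by
      refine ⟨Pi.single i 1, ?_⟩
      ext j
      simp [Matrix.vecMul, dotProduct, Pi.single_apply]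
    rw [hg] at h1
    obtain ⟨y, hy, hgy⟩ := h1
    have h2 : (fun j => (ZLattice.covolume (embLattice σ I)) ^ (-(1 : ℝ) / n) * σ j (a * y) * ε j)
        ∈ normLattice σ I ε := by
      refine ⟨a * y, ?_, rfl⟩
      have := I.smul_mem (⟨a, ha⟩ : O) hy
      simpa [Subring.smul_def] using this
    rw [← hg] at h2
    obtain ⟨z, hz⟩ := h2
    refine ⟨z, fun j => ?_⟩
    have h3 := congrFun hz j
    have h4 := congrFun hgy j
    simp only at h3 h4
    rw [h3, h4, map_mul]
    ring
  choose z hz using hrow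
  refine ⟨Matrix.of z, ?_⟩
  ext i j
  rw [Matrix.mul_diagonal, ← hz i j]
  simp [Matrix.mul_apply, Matrix.vecMul, dotProduct]

theorem orbitMeasure_null {n : ℕ} {S E : Set (X n)} (hE : MeasurableSet E)
    (hSE : Disjoint S E) : orbitMeasure S E = 0 := by
  unfold orbitMeasure
  split_ifs with h
  · by_cases hm : AEMeasurable (fun t => h.choose.act (aOf t))
        (volume.restrict h.choose_spec.choose)
    · rw [Measure.map_apply_of_aemeasurable hm hE]
      have : (fun t => h.choose.act (aOf t)) ⁻¹' E = ∅ := by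
        ext t
        simp only [Set.mem_preimage, Set.mem_empty_iff_false, iff_false]
        intro ht
        have hS0 : h.choose.act (aOf t) ∈ orbit h.choose := Set.mem_range_self t
        have hS : h.choose.act (aOf t) ∈ S :=
          (Set.ext_iff.1 h.choose_spec.choose_spec.1 _).2 hS0
        exact Set.disjoint_left.1 hSE hS ht
      rw [this, measure_empty]
    · rw [Measure.map_of_not_aemeasurable hm]
      rfl
  · rfl

theorem packetMeasure_null {n : ℕ} (σ : Fin n ≃ (K →+* ℝ)) (O : Subring K) {E : Set (X n)}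
    (hE : MeasurableSet E) (hSE : ∀ S ∈ packet σ O, Disjoint S E) :
    packetMeasure σ O E = 0 := by
  unfold packetMeasure
  rw [Measure.smul_apply, Measure.sum_apply _ hE]
  have : ∀ S : packet σ O, (vol S.1 • nu S.1) E = 0 := by
    intro S
    simp [nu, orbitMeasure_null hE (hSE S.1 S.2)]
  simp [this]

theorem obstruction {n : ℕ} (hn : 0 < n) {p : Polynomial ℤ} (hp : p ≠ 0)
    (hroot : ∀ z : ℤ, p.eval z ≠ 0) :
    ∃ f : X n → ℝ, Continuous f ∧ HasCompactSupport f ∧ (∀ x, 0 ≤ f x) ∧
      (∀ m : Measure (X n), IsProbabilityMeasure m → IsInvariant m → 0 < ∫ x, f x ∂m) ∧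
      ∀ (K : Type) [Field K] [NumberField K] (σ : Fin n ≃ (K →+* ℝ)) (O : Subring K) (a : K),
        a ∈ O → Polynomial.aeval a p = 0 →
          (∀ S ∈ packet σ O, ∀ x ∈ S, f x = 0) ∧ ∫ x, f x ∂(packetMeasure σ O) = 0 := by
  have hx0 : X.mk (1 : SLR n) ∉ badX n p := by
    intro h
    have : (1 : SLR n) ∈ X.mk ⁻¹' badX n p := h
    rw [preimage_badX] at this
    exact one_not_bad hn hroot this
  obtain ⟨f, hf1, hf0, hfc, hf01⟩ := exists_continuous_one_zero_of_isCompact
    (isCompact_singleton (x := X.mk (1 : SLR n))) (isClosed_badX n hp)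
    (Set.disjoint_singleton_left.2 hx0)
  refine ⟨f, f.continuous, hfc, fun x => (hf01 x).1, ?_, ?_⟩
  · intro m _ hm
    have hint : Integrable f m := f.continuous.integrable_of_hasCompactSupport hfc
    rw [integral_pos_iff_support_of_nonneg (fun x => (hf01 x).1) hint]
    apply measure_pos_of_isOpen m hm
    · exact f.continuous.isOpen_support
    · refine ⟨X.mk 1, ?_⟩
      have : f (X.mk 1) = 1 := hf1 (Set.mem_singleton _)
      simp [Function.mem_support, this]
  · intro K _ _ σ O a ha hpa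
    have hvan : ∀ S ∈ packet σ O, ∀ x ∈ S, f x = 0 := by
      rintro S ⟨I, -, ε, -, x, hx, rfl⟩ y ⟨t, rfl⟩
      exact hf0 (badX_act (point_bad σ I ε ha hpa hx) t)
    refine ⟨hvan, ?_⟩
    apply integral_eq_zero_of_ae
    have hE : MeasurableSet {x | f x ≠ 0} :=
      (f.continuous.isOpen_support).measurableSet
    have := packetMeasure_null σ O hE (fun S hS => Set.disjoint_left.2 fun x hx hx' =>
      hx' (hvan S hS x hx))
    exact (ae_iff.2 (by simpa using this))

end Vale.Agent.Lib.P007
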