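import Vale.Agent.Lib.P007.Defs

open Polynomial

namespace Vale.Agent.Lib.P007

section Orders

variable {K : Type} [Field K] [NumberField K]

/-- The subring `ℤ[P(θ)] + f ℤ[θ]` of `K`. -/
def ordSub (θ : K) (P : ℤ[X]) (f : ℤ) : Subring K where
  carrier := {x | ∃ u v : ℤ[X], x = aeval θ (u.comp P + C f * v)}
  mul_mem' := by
    rintro _ _ ⟨u, v, rfl⟩ ⟨u', v', rfl⟩
    refine ⟨u * u', u.comp P * v' + v * u'.comp P + C f * v * v', ?_⟩
    rw [← map_mul, mul_comp]
    congr 1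
    ring
  one_mem' := ⟨1, 0, by simp⟩
  add_mem' := by
    rintro _ _ ⟨u, v, rfl⟩ ⟨u', v', rfl⟩
    refine ⟨u + u', v + v', ?_⟩
    rw [← map_add, add_comp]
    congr 1
    ring
  zero_mem' := ⟨0, 0, by simp⟩
  neg_mem' := by
    rintro _ ⟨u, v, rfl⟩
    refine ⟨-u, -v, ?_⟩
    rw [← map_neg, neg_comp]
    congr 1
    ring

/-- The family `P(θ)^j θ^i`. -/
noncomputable def BB (θ : K) (P : ℤ[X]) (d e : ℕ) (k : Fin d × Fin e) : K :=
  (aeval θ P) ^ (k.1 : ℕ) * θ ^ (k.2 : ℕ)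

/-- The scaling factors: `1` if `i = 0` and `f` otherwise. -/
def cc (f : ℤ) (d e : ℕ) (k : Fin d × Fin e) : ℤ := if (k.2 : ℕ) = 0 then 1 else f

/-- The family `c_i P(θ)^j θ^i`. -/
noncomputable def bb (θ : K) (P : ℤ[X]) (f : ℤ) (d e : ℕ) (k : Fin d × Fin e) : K :=
  cc f d e k • BB θ P d e k

variable {θ : K} {p P : ℤ[X]} {d e : ℕ}

theorem span_pow_of_root (hpm : p.Monic) (hpd : p.natDegree = d) (hd : 0 < d) {a : K}
    (hroot : aeval a p = 0) (u : ℤ[X]) : ∃ z : Fin d → ℤ, aeval a u = ∑ j, z j • a ^ (j : ℕ) := by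
  have hp1 : p ≠ 1 := by
    intro h
    rw [h, natDegree_one] at hpd
    omega
  have h1 : (u %ₘ p).natDegree < d := hpd ▸ natDegree_modByMonic_lt u hpm hp1
  refine ⟨fun j => (u %ₘ p).coeff j, ?_⟩
  rw [← aeval_modByMonic_eq_self_of_root hroot (p := u), aeval_eq_sum_range' h1,
    ← Fin.sum_univ_eq_sum_range (fun i => (u %ₘ p).coeff i • a ^ i) d]

theorem a_mul_mem (hpm : p.Monic) (hpd : p.natDegree = d) (hd : 0 < d)
    (hroot : aeval (aeval θ P) p = 0) {x : K}
    (hx : x ∈ Submodule.span ℤ (Set.range (BB θ P d e))) :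
    aeval θ P * x ∈ Submodule.span ℤ (Set.range (BB θ P d e)) := by
  induction hx using Submodule.span_induction with
  | mem x hx =>
    obtain ⟨⟨j, i⟩, rfl⟩ := hx
    obtain ⟨z, hz⟩ := span_pow_of_root hpm hpd hd hroot ((Polynomial.X : ℤ[X]) ^ ((j : ℕ) + 1))
    have : aeval θ P * BB θ P d e (j, i) = ∑ l, z l • BB θ P d e (l, i) := by
      simp only [BB]
      rw [← mul_assoc, ← pow_succ']
      simp only [map_pow, aeval_X] at hz
      rw [hz, Finset.sum_mul]
      refine Finset.sum_congr rfl fun l _ => ?_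
      rw [smul_mul_assoc]
    rw [this]
    exact Submodule.sum_mem _ fun l _ => Submodule.smul_mem _ _ (Submodule.subset_span ⟨_, rfl⟩)
  | zero => simp
  | add x y _ _ hx hy => rw [mul_add]; exact Submodule.add_mem _ hx hy
  | smul c x _ hx => rw [mul_smul_comm]; exact Submodule.smul_mem _ _ hx

theorem aeval_mem_span (hpm : p.Monic) (hpd : p.natDegree = d) (hd : 0 < d)
    (hPm : P.Monic) (hPd : P.natDegree = e) (he : 0 < e)
    (hroot : aeval (aeval θ P) p = 0) (v : ℤ[X]) :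
    aeval θ v ∈ Submodule.span ℤ (Set.range (BB θ P d e)) := by
  induction hN : v.natDegree using Nat.strong_induction_on generalizing v with
  | _ N ih =>
    have hP1 : P ≠ 1 := by
      intro h
      rw [h, natDegree_one] at hPd
      omega
    have h1 : (v %ₘ P).natDegree < e := hPd ▸ natDegree_modByMonic_lt v hPm hP1
    have hrem : aeval θ (v %ₘ P) ∈ Submodule.span ℤ (Set.range (BB θ P d e)) := by
      rw [aeval_eq_sum_range' h1, ← Fin.sum_univ_eq_sum_range (fun i => (v %ₘ P).coeff i • θ ^ i) e]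
      refine Submodule.sum_mem _ fun i _ => Submodule.smul_mem _ _ (Submodule.subset_span ?_)
      exact ⟨(⟨0, hd⟩, i), by simp [BB]⟩
    have hsplit : aeval θ v = aeval θ (v %ₘ P) + aeval θ P * aeval θ (v /ₘ P) := by
      rw [← map_mul, ← map_add, modByMonic_add_div]
    rw [hsplit]
    refine Submodule.add_mem _ hrem ?_
    by_cases h0 : v /ₘ P = 0
    · rw [h0]; simp
    · apply a_mul_mem hpm hpd hd hroot
      have hdeg : ¬ v.degree < P.degree := fun h => h0 ((divByMonic_eq_zero_iff hPm).2 h)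
      have hle : P.natDegree ≤ v.natDegree := natDegree_le_natDegree (not_lt.1 hdeg)
      refine ih (v /ₘ P).natDegree ?_ (v /ₘ P) rfl
      rw [natDegree_divByMonic v hPm]
      omega

theorem smul_mem_span_bb (f : ℤ) {y : K}
    (hy : y ∈ Submodule.span ℤ (Set.range (BB θ P d e))) :
    f • y ∈ Submodule.span ℤ (Set.range (bb θ P f d e)) := by
  induction hy using Submodule.span_induction with
  | mem x hx =>
    obtain ⟨k, rfl⟩ := hx
    by_cases hk : (k.2 : ℕ) = 0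
    · have : BB θ P d e k = bb θ P f d e k := by simp [bb, cc, hk]
      rw [this]
      exact Submodule.smul_mem _ _ (Submodule.subset_span ⟨k, rfl⟩)
    · have : f • BB θ P d e k = bb θ P f d e k := by simp [bb, cc, hk]
      rw [this]
      exact Submodule.subset_span ⟨k, rfl⟩
  | zero => simp
  | add x y _ _ hx hy => rw [smul_add]; exact Submodule.add_mem _ hx hy
  | smul c x _ hx => rw [smul_comm]; exact Submodule.smul_mem _ _ hx

theorem bb_span (hpm : p.Monic) (hpd : p.natDegree = d) (hd : 0 < d)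
    (hPm : P.Monic) (hPd : P.natDegree = e) (he : 0 < e)
    (hroot : aeval (aeval θ P) p = 0) (f : ℤ) :
    (Submodule.span ℤ (Set.range (bb θ P f d e)) : Set K) = ordSub θ P f := by
  apply Set.Subset.antisymm
  · have h1 : Submodule.span ℤ (Set.range (bb θ P f d e)) ≤
        (ordSub θ P f).toAddSubgroup.toIntSubmodule := by
      rw [Submodule.span_le]
      rintro _ ⟨k, rfl⟩
      by_cases hk : (k.2 : ℕ) = 0
      · refine ⟨(Polynomial.X : ℤ[X]) ^ (k.1 : ℕ), 0, ?_⟩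
        simp [bb, cc, BB, hk]
      · refine ⟨0, P ^ (k.1 : ℕ) * (Polynomial.X : ℤ[X]) ^ (k.2 : ℕ), ?_⟩
        simp [bb, cc, BB, hk]
    exact h1
  · rintro _ ⟨u, v, rfl⟩
    rw [map_add, map_mul, aeval_comp, aeval_C]
    refine Submodule.add_mem _ ?_ ?_
    · obtain ⟨z, hz⟩ := span_pow_of_root hpm hpd hd hroot u
      rw [hz]
      refine Submodule.sum_mem _ fun j _ => Submodule.smul_mem _ _ (Submodule.subset_span ?_)
      exact ⟨(j, ⟨0, he⟩), by simp [bb, cc, BB]⟩
    · have := smul_mem_span_bb (θ := θ) (P := P) (d := d) (e := e) f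
        (aeval_mem_span hpm hpd hd hPm hPd he hroot v)
      simpa [zsmul_eq_mul] using this

theorem BB_top_le (hpm : p.Monic) (hpd : p.natDegree = d) (hd : 0 < d)
    (hPm : P.Monic) (hPd : P.natDegree = e) (he : 0 < e)
    (hroot : aeval (aeval θ P) p = 0) (hgen : ∀ x : K, ∃ w : ℚ[X], aeval θ w = x) :
    ⊤ ≤ Submodule.span ℚ (Set.range (BB θ P d e)) := by
  intro x _
  obtain ⟨w, rfl⟩ := hgen x
  rw [aeval_eq_sum_range]
  refine Submodule.sum_mem _ fun k _ => Submodule.smul_mem _ _ ?_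
  have h1 := aeval_mem_span hpm hpd hd hPm hPd he hroot ((Polynomial.X : ℤ[X]) ^ k)
  rw [map_pow, aeval_X] at h1
  exact Submodule.span_subset_span ℤ ℚ _ h1

theorem BB_li (hpm : p.Monic) (hpd : p.natDegree = d) (hd : 0 < d)
    (hPm : P.Monic) (hPd : P.natDegree = e) (he : 0 < e)
    (hroot : aeval (aeval θ P) p = 0) (hgen : ∀ x : K, ∃ w : ℚ[X], aeval θ w = x)
    (hfr : Module.finrank ℚ K = d * e) : LinearIndependent ℚ (BB θ P d e) := by
  apply linearIndependent_of_top_le_span_of_card_eq_finrank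
    (BB_top_le hpm hpd hd hPm hPd he hroot hgen)
  rw [hfr]
  simp

theorem bb_eq (f : ℤ) : bb θ P f d e =
    Matrix.mulVec ((Matrix.diagonal (fun k => ((cc f d e k : ℤ) : ℚ))).map (algebraMap ℚ K))
      (BB θ P d e) := by
  funext k
  rw [Matrix.diagonal_map (map_zero _), Matrix.mulVec_diagonal]
  simp [bb, zsmul_eq_mul]

theorem discr_bb (f : ℤ) : Algebra.discr ℚ (bb θ P f d e) =
    (∏ k, ((cc f d e k : ℤ) : ℚ)) ^ 2 * Algebra.discr ℚ (BB θ P d e) := by
  rw [bb_eq, Algebra.discr_of_matrix_mulVec, Matrix.det_diagonal]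

theorem prod_cc (f : ℤ) (hf : 1 ≤ f) (hd : 0 < d) (he : 2 ≤ e) :
    (f : ℚ) ≤ (∏ k, ((cc f d e k : ℤ) : ℚ)) ^ 2 := by
  have hfq : (1 : ℚ) ≤ f := by exact_mod_cast hf
  have h1 : ∀ k, (1 : ℚ) ≤ ((cc f d e k : ℤ) : ℚ) := by
    intro k
    unfold cc
    split_ifs
    · simp
    · exact hfq
  have h2 : (f : ℚ) ≤ ∏ k, ((cc f d e k : ℤ) : ℚ) := by
    rw [← Finset.mul_prod_erase Finset.univ _
      (Finset.mem_univ ((⟨0, hd⟩ : Fin d), (⟨1, he⟩ : Fin e)))]
    have h3 : (1 : ℚ) ≤ ∏ k ∈ Finset.univ.erase ((⟨0, hd⟩ : Fin d), (⟨1, he⟩ : Fin e)),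
        ((cc f d e k : ℤ) : ℚ) :=
      Finset.prod_induction _ (fun x => (1 : ℚ) ≤ x) (fun a b ha hb => one_le_mul_of_one_le_of_one_le ha hb)
        le_rfl (fun k _ => h1 k)
    have h5 : ((cc f d e ((⟨0, hd⟩ : Fin d), (⟨1, he⟩ : Fin e)) : ℤ) : ℚ) = f := by simp [cc]
    rw [h5]
    nlinarith
  have h4 : (1 : ℚ) ≤ ∏ k, ((cc f d e k : ℤ) : ℚ) := hfq.trans h2
  nlinarith

theorem isIntegral_aeval {x : K} (hx : IsIntegral ℤ x) (w : ℤ[X]) : IsIntegral ℤ (aeval x w) := by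
  rw [aeval_eq_sum_range]
  exact IsIntegral.sum _ fun i _ => (hx.pow i).smul _

theorem ordSub_isOrder (hpm : p.Monic) (hpd : p.natDegree = d) (hd : 0 < d)
    (hPm : P.Monic) (hPd : P.natDegree = e) (he : 0 < e)
    (hroot : aeval (aeval θ P) p = 0) (hgen : ∀ x : K, ∃ w : ℚ[X], aeval θ w = x)
    {f : ℤ} (hf : f ≠ 0) : IsOrder (ordSub θ P f) := by
  constructor
  · rintro _ ⟨u, v, rfl⟩
    apply isIntegral_aeval
    refine ⟨p.comp P, hpm.comp hPm (by omega), ?_⟩
    rw [← aeval_def, aeval_comp, hroot]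
  · rw [eq_top_iff]
    refine (BB_top_le hpm hpd hd hPm hPd he hroot hgen).trans ?_
    rw [Submodule.span_le]
    rintro _ ⟨k, rfl⟩
    have hfq : (f : ℚ) ≠ 0 := by exact_mod_cast hf
    have h1 : (f : K) * BB θ P d e k ∈ Submodule.span ℚ ((ordSub θ P f : Subring K) : Set K) := by
      apply Submodule.subset_span
      refine ⟨0, P ^ (k.1 : ℕ) * (Polynomial.X : ℤ[X]) ^ (k.2 : ℕ), ?_⟩
      simp [BB]
    have h2 : BB θ P d e k = ((f : ℚ)⁻¹) • ((f : K) * BB θ P d e k) := by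
      rw [Algebra.smul_def, ← mul_assoc]
      have : algebraMap ℚ K (f : ℚ)⁻¹ * (f : K) = 1 := by
        have h3 : (f : K) = algebraMap ℚ K (f : ℚ) := by simp
        rw [h3, ← map_mul, inv_mul_cancel₀ hfq, map_one]
      rw [this, one_mul]
    rw [SetLike.mem_coe, h2]
    exact Submodule.smul_mem _ _ h1

theorem discr_comp_equiv {ι ι' : Type} [Fintype ι] [Fintype ι'] [DecidableEq ι] [DecidableEq ι']
    (b : ι → K) (g : ι' ≃ ι) : Algebra.discr ℚ (b ∘ g) = Algebra.discr ℚ b := by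
  rw [Algebra.discr_def, Algebra.discr_def]
  have : Algebra.traceMatrix ℚ (b ∘ g) = (Algebra.traceMatrix ℚ b).submatrix g g := rfl
  rw [this, Matrix.det_submatrix_equiv_self]

theorem discr_BB_ne (hpm : p.Monic) (hpd : p.natDegree = d) (hd : 0 < d)
    (hPm : P.Monic) (hPd : P.natDegree = e) (he : 0 < e)
    (hroot : aeval (aeval θ P) p = 0) (hgen : ∀ x : K, ∃ w : ℚ[X], aeval θ w = x)
    (hfr : Module.finrank ℚ K = d * e) : Algebra.discr ℚ (BB θ P d e) ≠ 0 := by
  have h := Algebra.discr_not_zero_of_basis ℚ (Module.Basis.mk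
    (BB_li hpm hpd hd hPm hPd he hroot hgen hfr) (BB_top_le hpm hpd hd hPm hPd he hroot hgen))
  rwa [Module.Basis.coe_mk] at h

theorem ordSub_isDisc (hpm : p.Monic) (hpd : p.natDegree = d) (hd : 0 < d)
    (hPm : P.Monic) (hPd : P.natDegree = e) (he : 2 ≤ e)
    (hroot : aeval (aeval θ P) p = 0) (hgen : ∀ x : K, ∃ w : ℚ[X], aeval θ w = x)
    (hfr : Module.finrank ℚ K = d * e) {f : ℤ} (hf : 1 ≤ f) :
    IsDisc (d * e) (ordSub θ P f)
      ((∏ k, ((cc f d e k : ℤ) : ℚ)) ^ 2 * Algebra.discr ℚ (BB θ P d e)) := by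
  have hne : Algebra.discr ℚ (bb θ P f d e) ≠ 0 := by
    rw [discr_bb]
    have h1 := prod_cc f hf hd he
    have h2 : (0 : ℚ) < f := by exact_mod_cast (by omega : 0 < f)
    have h3 : (0 : ℚ) < (∏ k, ((cc f d e k : ℤ) : ℚ)) ^ 2 := by linarith
    exact mul_ne_zero h3.ne' (discr_BB_ne hpm hpd hd hPm hPd (by omega) hroot hgen hfr)
  have hli : LinearIndependent ℚ (bb θ P f d e) := by
    by_contra hcon
    exact hne (Algebra.discr_zero_of_not_linearIndependent ℚ hcon)
  refine ⟨bb θ P f d e ∘ finProdFinEquiv.symm, ?_, ?_, ?_⟩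
  · have h1 : LinearIndependent ℤ (bb θ P f d e) :=
      hli.restrict_scalars (by
        intro x y hxy
        simpa using hxy)
    exact h1.comp _ finProdFinEquiv.symm.injective
  · rw [finProdFinEquiv.symm.surjective.range_comp]
    exact bb_span hpm hpd hd hPm hPd (by omega) hroot f
  · rw [discr_comp_equiv, discr_bb]

end Orders

end Vale.Agent.Lib.P007
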