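import Mathlib

open Polynomial

namespace Vale.Agent.Lib.P007

/-- The scaled Chebyshev (Vieta-Lucas) polynomials `Q_m(X) = s^m C_m(X / s)`. -/
noncomputable def Q (s : ℤ) : ℕ → ℤ[X]
  | 0 => 2
  | 1 => X
  | (m + 2) => X * Q s (m + 1) - C (s ^ 2) * Q s m

theorem Q_zero (s : ℤ) : Q s 0 = 2 := by rw [Q]
theorem Q_one (s : ℤ) : Q s 1 = X := by rw [Q]
theorem Q_succ_succ (s : ℤ) (m : ℕ) : Q s (m + 2) = X * Q s (m + 1) - C (s ^ 2) * Q s m := by
  rw [Q]

theorem Q_form (s : ℤ) (m : ℕ) : ∃ W : ℤ[X], Q s (m + 1) = X ^ (m + 1) + C (s ^ 2) * W := by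
  induction m using Nat.strong_induction_on with
  | _ m ih =>
    match m with
    | 0 => exact ⟨0, by simp [Q_one]⟩
    | (k + 1) =>
      obtain ⟨W, hW⟩ := ih k (by omega)
      refine ⟨X * W - Q s k, ?_⟩
      rw [Q_succ_succ, hW]
      ring

theorem Q_deg (s : ℤ) (m : ℕ) : (Q s (m + 1)).Monic ∧ (Q s (m + 1)).natDegree = m + 1 ∧
    (Q s m).natDegree ≤ m := by
  induction m with
  | zero => simp [Q_one, Q_zero, monic_X]
  | succ k ih =>
    obtain ⟨h1, h2, h3⟩ := ih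
    have hX : (X * Q s (k + 1)).Monic := monic_X.mul h1
    have hXd : (X * Q s (k + 1)).natDegree = k + 2 := by
      rw [monic_X.natDegree_mul h1, natDegree_X, h2]; ring
    have hlt : (C (s ^ 2) * Q s k).degree < (X * Q s (k + 1)).degree := by
      rw [degree_eq_natDegree hX.ne_zero, hXd]
      refine lt_of_le_of_lt degree_le_natDegree ?_
      have h4 : (C (s ^ 2) * Q s k).natDegree ≤ k := (natDegree_C_mul_le _ _).trans h3
      exact_mod_cast (by omega : (C (s ^ 2) * Q s k).natDegree < k + 2)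
    refine ⟨?_, ?_, h2.le⟩
    · rw [Q_succ_succ]
      exact hX.sub_of_left hlt
    · have h4 : (C (s ^ 2) * Q s k).natDegree ≤ k := (natDegree_C_mul_le _ _).trans h3
      rw [Q_succ_succ, natDegree_sub_eq_left_of_natDegree_lt (by omega), hXd]

theorem Q_eval (s : ℤ) (ψ : ℝ) (m : ℕ) :
    aeval (2 * (s : ℝ) * Real.cos ψ) (Q s m) = 2 * (s : ℝ) ^ m * Real.cos (m * ψ) := by
  induction m using Nat.strong_induction_on with
  | _ m ih =>
    match m with
    | 0 =>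
      have : (2 : ℤ[X]) = C 2 := rfl
      rw [Q_zero, this, aeval_C]
      simp
    | 1 => simp [Q_one]
    | (k + 2) =>
      rw [Q_succ_succ, map_sub, map_mul, map_mul, aeval_X, aeval_C, ih (k + 1) (by omega),
        ih k (by omega)]
      have h1 : Real.cos (((k + 2 : ℕ) : ℝ) * ψ) =
          2 * Real.cos ψ * Real.cos (((k + 1 : ℕ) : ℝ) * ψ) - Real.cos ((k : ℝ) * ψ) := by
        have e1 : ((k + 2 : ℕ) : ℝ) * ψ = ((k + 1 : ℕ) : ℝ) * ψ + ψ := by push_cast; ring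
        have e2 : (k : ℝ) * ψ = ((k + 1 : ℕ) : ℝ) * ψ - ψ := by push_cast; ring
        rw [e1, e2, Real.cos_add, Real.cos_sub]
        ring
      rw [h1]
      simp only [eq_intCast, Int.cast_pow]
      ring


theorem eisenstein_form {h V : ℤ[X]} {m : ℕ} (hm : 0 < m) (hmon : h.Monic) (hdeg : h.natDegree = m)
    (hform : h = X ^ m - 2 + 4 * V) : Irreducible h := by
  have h2 : (2 : ℤ[X]) = C 2 := rfl
  have h4 : (4 : ℤ[X]) = C 4 := rfl
  have hcoeff : ∀ k, k < m → h.coeff k = 4 * V.coeff k - (if k = 0 then 2 else 0) := by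
    intro k hk
    rw [hform, h2, h4]
    simp only [coeff_add, coeff_sub, coeff_X_pow, coeff_C_mul, coeff_C]
    have : k ≠ m := by omega
    simp [this]
    ring
  have hE : h.IsEisensteinAt (Ideal.span {(2 : ℤ)}) := by
    refine ⟨?_, ?_, ?_⟩
    · rw [hmon.leadingCoeff, Ideal.mem_span_singleton]
      norm_num
    · intro k hk
      rw [hdeg] at hk
      rw [hcoeff k hk, Ideal.mem_span_singleton]
      split_ifs
      · exact ⟨2 * V.coeff k - 1, by ring⟩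
      · exact ⟨2 * V.coeff k, by ring⟩
    · rw [hcoeff 0 hm, Ideal.span_singleton_pow, Ideal.mem_span_singleton]
      simp only [if_true]
      rintro ⟨c, hc⟩
      omega
  exact hE.irreducible ((Ideal.span_singleton_prime (by norm_num)).2 Int.prime_two)
    hmon.isPrimitive (by omega)

/-- `P_e`. -/
noncomputable def PP (e : ℕ) : ℤ[X] := Q 2 e

/-- `p_{d,e}`. -/
noncomputable def pp (d e : ℕ) : ℤ[X] := Q (2 ^ e) d - C 2

/-- `g = p ∘ P`. -/
noncomputable def gg (d e : ℕ) : ℤ[X] := (pp d e).comp (PP e)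

theorem PP_monic {e : ℕ} (he : 0 < e) : (PP e).Monic := by
  obtain ⟨k, rfl⟩ : ∃ k, e = k + 1 := ⟨e - 1, by omega⟩
  exact (Q_deg 2 k).1

theorem PP_natDegree {e : ℕ} (he : 0 < e) : (PP e).natDegree = e := by
  obtain ⟨k, rfl⟩ : ∃ k, e = k + 1 := ⟨e - 1, by omega⟩
  exact (Q_deg 2 k).2.1

theorem pp_monic {d : ℕ} (e : ℕ) (hd : 0 < d) : (pp d e).Monic := by
  obtain ⟨k, rfl⟩ : ∃ k, d = k + 1 := ⟨d - 1, by omega⟩
  apply (Q_deg (2 ^ e) k).1.sub_of_left
  rw [degree_eq_natDegree (Q_deg (2 ^ e) k).1.ne_zero, (Q_deg (2 ^ e) k).2.1]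
  refine lt_of_le_of_lt degree_C_le ?_
  exact_mod_cast Nat.succ_pos k

theorem pp_natDegree {d : ℕ} (e : ℕ) (hd : 0 < d) : (pp d e).natDegree = d := by
  obtain ⟨k, rfl⟩ : ∃ k, d = k + 1 := ⟨d - 1, by omega⟩
  rw [pp, natDegree_sub_C, (Q_deg (2 ^ e) k).2.1]

theorem gg_monic {d e : ℕ} (hd : 0 < d) (he : 0 < e) : (gg d e).Monic :=
  (pp_monic e hd).comp (PP_monic he) (by rw [PP_natDegree he]; omega)

theorem gg_natDegree {d e : ℕ} (hd : 0 < d) (he : 0 < e) : (gg d e).natDegree = d * e := by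
  rw [gg, natDegree_comp, pp_natDegree e hd, PP_natDegree he]

theorem pp_form {d e : ℕ} (hd : 0 < d) (he : 0 < e) : ∃ V : ℤ[X], pp d e = X ^ d - 2 + 4 * V := by
  obtain ⟨k, rfl⟩ : ∃ k, d = k + 1 := ⟨d - 1, by omega⟩
  obtain ⟨l, rfl⟩ : ∃ l, e = l + 1 := ⟨e - 1, by omega⟩
  obtain ⟨W, hW⟩ := Q_form (2 ^ (l + 1)) k
  refine ⟨C (4 ^ l) * W, ?_⟩
  have h2 : (2 : ℤ[X]) = C 2 := rfl
  have h4 : (4 : ℤ[X]) = C 4 := rfl
  rw [pp, hW, h2, h4, ← mul_assoc, ← C_mul]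
  have : ((2 : ℤ) ^ (l + 1)) ^ 2 = 4 * 4 ^ l := by
    rw [← pow_mul, mul_comm (l + 1) 2, pow_mul]; norm_num; ring
  rw [this]
  ring

theorem gg_form {d e : ℕ} (hd : 0 < d) (he : 0 < e) :
    ∃ V : ℤ[X], gg d e = X ^ (d * e) - 2 + 4 * V := by
  obtain ⟨V1, hV1⟩ := pp_form hd he
  obtain ⟨l, rfl⟩ : ∃ l, e = l + 1 := ⟨e - 1, by omega⟩
  obtain ⟨W, hW⟩ := Q_form 2 l
  have hP : PP (l + 1) = X ^ (l + 1) + 4 * W := by
    rw [PP, hW]
    have h4 : (4 : ℤ[X]) = C 4 := rfl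
    rw [h4]; norm_num
  obtain ⟨U, hU⟩ : (PP (l + 1) - X ^ (l + 1)) ∣ (PP (l + 1)) ^ d - (X ^ (l + 1)) ^ d :=
    sub_dvd_pow_sub_pow _ _ _
  refine ⟨W * U + V1.comp (PP (l + 1)), ?_⟩
  have h2 : (2 : ℤ[X]) = C 2 := rfl
  have h4 : (4 : ℤ[X]) = C 4 := rfl
  have e1 : (PP (l + 1)) ^ d = X ^ (d * (l + 1)) + 4 * (W * U) := by
    have : (PP (l + 1)) ^ d = (X ^ (l + 1)) ^ d + (PP (l + 1) - X ^ (l + 1)) * U := by
      rw [← hU]; ring
    rw [this, hP, ← pow_mul, mul_comm (l + 1) d]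
    ring
  rw [gg, hV1, h2, h4]
  simp only [add_comp, sub_comp, mul_comp, X_pow_comp, C_comp]
  rw [e1, h4]
  ring

theorem gg_irreducible {d e : ℕ} (hd : 0 < d) (he : 0 < e) : Irreducible (gg d e) := by
  obtain ⟨V, hV⟩ := gg_form hd he
  exact eisenstein_form (Nat.mul_pos hd he) (gg_monic hd he) (gg_natDegree hd he) hV

theorem gg_irreducible_rat {d e : ℕ} (hd : 0 < d) (he : 0 < e) :
    Irreducible ((gg d e).map (Int.castRingHom ℚ)) :=
  (IsPrimitive.Int.irreducible_iff_irreducible_map_cast (gg_monic hd he).isPrimitive).1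
    (gg_irreducible hd he)

theorem pp_no_root {d e : ℕ} (hd : 2 ≤ d) (he : 0 < e) (z : ℤ) : (pp d e).eval z ≠ 0 := by
  obtain ⟨V, hV⟩ := pp_form (by omega : 0 < d) he
  intro h
  rw [hV] at h
  have h2 : (2 : ℤ[X]) = C 2 := rfl
  have h4 : (4 : ℤ[X]) = C 4 := rfl
  rw [h2, h4] at h
  simp only [eval_add, eval_sub, eval_pow, eval_X, eval_C, eval_mul] at h
  obtain ⟨k, rfl⟩ : ∃ k, d = k + 2 := ⟨d - 2, by omega⟩
  rcases Int.even_or_odd z with ⟨w, hw⟩ | hodd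
  · have : z ^ (k + 2) = 4 * (w ^ 2 * z ^ k) := by rw [pow_add, hw]; ring
    omega
  · have h3 : Odd (z ^ (k + 2)) := hodd.pow
    obtain ⟨w, hw⟩ := h3
    omega


noncomputable def phi0 (n : ℕ) : ℝ := Real.arccos ((2 : ℝ) ^ n)⁻¹

theorem cos_phi0 (n : ℕ) : Real.cos (phi0 n) = ((2 : ℝ) ^ n)⁻¹ := by
  apply Real.cos_arccos
  · have : (0 : ℝ) < ((2 : ℝ) ^ n)⁻¹ := by positivity
    linarith
  · apply inv_le_one_of_one_le₀
    exact one_le_pow₀ (by norm_num)

theorem phi0_pos {n : ℕ} (hn : 0 < n) : 0 < phi0 n := by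
  apply Real.arccos_pos.2
  apply inv_lt_one_of_one_lt₀
  exact one_lt_pow₀ (by norm_num) (by omega)

theorem phi0_lt (n : ℕ) : phi0 n < Real.pi := by
  apply Real.arccos_lt_pi.2
  have : (0 : ℝ) < ((2 : ℝ) ^ n)⁻¹ := by positivity
  linarith

noncomputable def psi (n : ℕ) (k : ℕ) : ℝ := (phi0 n + 2 * Real.pi * k) / n

noncomputable def xr (n : ℕ) (k : ℕ) : ℝ := 2 * ((2 : ℤ) : ℝ) * Real.cos (psi n k)

theorem xr_inj {n : ℕ} (hn : 0 < n) {k l : ℕ} (hk : k < n) (hl : l < n) (h : xr n k = xr n l) :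
    k = l := by
  have hn' : (n : ℝ) ≠ 0 := by positivity
  have hpi := Real.pi_pos
  have hc : Real.cos (psi n k) = Real.cos (psi n l) := by
    unfold xr at h
    have h4 : (2 * ((2 : ℤ) : ℝ)) ≠ 0 := by norm_num
    exact mul_left_cancel₀ h4 h
  rw [Real.cos_eq_cos_iff] at hc
  obtain ⟨m, hm | hm⟩ := hc
  · unfold psi at hm
    have h1 : ((l : ℝ) - k) * (2 * Real.pi) = (m * n : ℝ) * (2 * Real.pi) := by
      field_simp at hm
      linarith
    have h2 : ((l : ℝ) - k) = (m * n : ℝ) := mul_right_cancel₀ (by positivity) h1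
    have h3 : ((l : ℤ) - k) = m * n := by exact_mod_cast h2
    have h4 : m = 0 := by
      by_contra hne
      rcases lt_or_gt_of_ne hne with h5 | h5
      · have : m * n ≤ -1 * n := by nlinarith
        omega
      · have : 1 * (n : ℤ) ≤ m * n := by nlinarith
        omega
    rw [h4] at h3
    omega
  · unfold psi at hm
    have h1 : phi0 n * 2 = ((m * n - l - k : ℤ) : ℝ) * Real.pi * 2 := by
      field_simp at hm
      push_cast
      linarith
    have h2 : phi0 n = ((m * n - l - k : ℤ) : ℝ) * Real.pi := by linarith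
    have h3 := phi0_pos hn
    have h4 := phi0_lt n
    rw [h2] at h3 h4
    have h5 : (0 : ℝ) < ((m * n - l - k : ℤ) : ℝ) := by
      by_contra hcon
      rw [not_lt] at hcon
      nlinarith
    have h6 : ((m * n - l - k : ℤ) : ℝ) < 1 := by
      by_contra hcon
      rw [not_lt] at hcon
      nlinarith
    have h7 : (0 : ℤ) < m * n - l - k := by exact_mod_cast h5
    have h8 : m * n - l - k < (1 : ℤ) := by exact_mod_cast h6
    omega

theorem xr_root {d e : ℕ} (hd : 0 < d) (he : 0 < e) (k : ℕ) :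
    aeval (xr (d * e) k) (gg d e) = 0 := by
  have hn : ((d * e : ℕ) : ℝ) ≠ 0 := by
    have := Nat.mul_pos hd he
    positivity
  rw [gg, aeval_comp, PP, xr, Q_eval, pp, map_sub, aeval_C]
  have h1 : 2 * ((2 : ℤ) : ℝ) ^ e * Real.cos (e * psi (d * e) k) =
      2 * (((2 : ℤ) ^ e : ℤ) : ℝ) * Real.cos (e * psi (d * e) k) := by push_cast; ring
  rw [h1, Q_eval]
  have h2 : (d : ℝ) * (e * psi (d * e) k) = phi0 (d * e) + k * (2 * Real.pi) := by
    unfold psi
    push_cast at hn ⊢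
    field_simp
  rw [h2, Real.cos_add_nat_mul_two_pi, cos_phi0]
  push_cast
  rw [← pow_mul, mul_comm e d]
  have : (2 : ℝ) ^ (d * e) ≠ 0 := by positivity
  field_simp
  simp

end Vale.Agent.Lib.P007
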